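import Vale.Agent.P192.R2.H360.R.Defs
import Vale.Agent.P192.R2.H577.Gro

set_option linter.all false

/-! Machines over a group: row R3 (from R1). -/

namespace Vale.Agent.P192.R2.H111

open Vale.Agent.P192 Vale.Agent.P192.H437 Vale.Agent.P192.H593 Vale.Agent.P192.R2.H577
  Vale.Agent.P192.R2.H360.R
open scoped Pointwise

universe u v

theorem hop_symm {G : Type v} [Group G] {X : Type u} [MulAction G X] {S : Set G} {n : ℕ}
    {x y : X} (h : hop S n x y) : hop S n y x := by
  obtain ⟨p, hp⟩ := walk_of_hop h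
  have h1 := hop_of_walk p.reverse
  rw [SimpleGraph.Walk.length_reverse] at h1
  exact hop_le hp h1

section

variable {G : Type v} [Group G] {S : Set G} {H A Q : Type} [Group H] [DecidableEq H]
  {T : Finset H} {X : Type u} [MulAction G X] {hd : X → H} {tp : X → H → A} {st : X → Q}

theorem path (hL : Loc S T X hd tp st) (w : List G) (hw : ∀ s ∈ w, s ∈ S ∨ s⁻¹ ∈ S) (z : X) :
    (hd z)⁻¹ * hd (w.prod • z) ∈ T ^ w.length ∧
      ∀ q, tp (w.prod • z) q ≠ tp z q → (hd z)⁻¹ * q ∈ T ^ w.length := by
  induction w with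
  | nil =>
    refine ⟨by simp, fun q hq => absurd (by simp) hq⟩
  | cons s w ih =>
    obtain ⟨h1, h2⟩ := ih fun t ht => hw t (by simp [ht])
    have hs := hw s (by simp)
    rw [List.prod_cons, mul_smul, List.length_cons, pow_succ]
    refine ⟨?_, fun q hq => ?_⟩
    · have h3 := Finset.mul_mem_mul h1 (hL.move (w.prod • z) s hs)
      rwa [mul_assoc, mul_inv_cancel_left] at h3
    · by_cases hq' : tp (w.prod • z) q = tp z q
      · rw [← hq'] at hq
        have h3 := Finset.mul_mem_mul h1 (hL.write (w.prod • z) s q hs hq)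
        rwa [mul_assoc, mul_inv_cancel_left] at h3
      · have h3 := Finset.mul_mem_mul (h2 q hq') hL.one
        rwa [mul_one] at h3

theorem pow_mono (hL : Loc S T X hd tp st) {m n : ℕ} (h : m ≤ n) : T ^ m ⊆ T ^ n :=
  Finset.pow_subset_pow_right hL.one h

/-- points of a linked set with heads close to `p` have the same tape far from `p` -/
theorem same_tape (hL : Loc S T X hd tp st) {R : ℕ} {B : Set X} {p : H}
    (hB : ∀ z ∈ B, (hd z)⁻¹ * p ∈ T) {a b : X} (h : linked S R B a b) (q : H)
    (hq : p⁻¹ * q ∉ T ^ (R + 1)) : tp a q = tp b q := by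
  induction h with
  | refl => rfl
  | tail _ h ih =>
    rename_i b c _
    obtain ⟨hb, hc, w, hw, hwl, hwe⟩ := h
    rw [ih]
    by_contra hne
    refine hq ?_
    have h1 := (path hL w hw b).2 q (by rw [hwe]; exact fun h => hne h.symm)
    have h2 := pow_mono hL hwl h1
    have h3 := hL.inv _ (hB b hb)
    rw [mul_inv_rev, inv_inv] at h3
    have h4 := Finset.mul_mem_mul h3 h2
    rw [mul_assoc, mul_inv_cancel_left, ← pow_succ'] at h4
    exact h4

theorem card_le (hL : Loc S T X hd tp st) [Finite A] [Finite Q] {R : ℕ} {B : Set X} {p : H}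
    (hB : ∀ z ∈ B, (hd z)⁻¹ * p ∈ T) (hl : ∀ a ∈ B, ∀ b ∈ B, linked S R B a b) :
    B.encard ≤ (Nat.card (T × Q × (↥(T ^ (R + 1)) → A)) : ℕ) := by
  classical
  let f : B → T × Q × (↥(T ^ (R + 1)) → A) := fun z =>
    (⟨(hd z.1)⁻¹ * p, hB z.1 z.2⟩, st z.1, fun τ => tp z.1 (p * τ.1))
  have hf : Function.Injective f := by
    intro a b hab
    have h1 := congrArg Prod.fst hab
    have h2 := congrArg Prod.snd hab
    have h3 := congrArg Prod.fst h2
    have h4 := congrArg Prod.snd h2
    have h5 : (hd a.1)⁻¹ * p = (hd b.1)⁻¹ * p := congrArg Subtype.val h1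
    have h6 : hd a.1 = hd b.1 := inv_injective (mul_right_cancel h5)
    refine Subtype.ext (hL.inj _ _ h6 h3 (funext fun q => ?_))
    by_cases hq : p⁻¹ * q ∈ T ^ (R + 1)
    · have h7 := congrFun h4 ⟨p⁻¹ * q, hq⟩
      change tp a.1 (p * (p⁻¹ * q)) = tp b.1 (p * (p⁻¹ * q)) at h7
      rwa [mul_inv_cancel_left] at h7
    · exact same_tape hL hB (hl a.1 a.2 b.1 b.2) q hq
  have : Finite (T × Q × (↥(T ^ (R + 1)) → A)) := inferInstance
  have hBf : Finite B := Finite.of_injective f hf
  have hBf' : B.Finite := Set.toFinite B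
  rw [← hBf'.cast_ncard_eq, Nat.cast_le, ← Nat.card_coe_set_eq]
  exact Nat.card_le_card_of_injective f hf

end

/-- a linked set of at most `N` points has diameter at most `R * N` -/
theorem linked_hop {G : Type v} [Group G] {X : Type u} [MulAction G X] {S : Set G} {R N : ℕ}
    {B : Set X} (hB : B.encard ≤ N) {a b : X} (ha : a ∈ B) (hb : b ∈ B)
    (h : linked S R B a b) : hop S (R * N) a b := by
  classical
  have hfin : B.Finite := Set.finite_of_encard_le_coe hB
  have : Fintype B := hfin.fintype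
  have hcard : Fintype.card B ≤ N := by
    have h1 := hB
    rw [Set.encard_eq_coe_toFinset_card, Set.toFinset_card] at h1
    exact_mod_cast h1
  let Γ : SimpleGraph B := SimpleGraph.fromRel fun a b => hop S R a.1 b.1
  have key : ∀ (c : X) (_ : linked S R B a c) (hc : c ∈ B), Γ.Reachable ⟨a, ha⟩ ⟨c, hc⟩ := by
    intro c h
    induction h with
    | refl => intro _; exact SimpleGraph.Reachable.refl _
    | tail _ h ih =>
      rename_i b c _
      intro hc
      obtain ⟨hb, _, h1⟩ := h
      refine (ih hb).trans ?_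
      by_cases hbc : b = c
      · subst hbc
        exact SimpleGraph.Reachable.refl _
      · refine SimpleGraph.Adj.reachable ?_
        rw [SimpleGraph.fromRel_adj]
        exact ⟨fun h => hbc (congrArg Subtype.val h), Or.inl h1⟩
  obtain ⟨p⟩ := key b h hb
  have hw : ∀ (x y : B) (p : Γ.Walk x y), hop S (R * p.length) x.1 y.1 := by
    intro x y p
    induction p with
    | nil => exact ⟨[], by simp, by simp, by simp⟩
    | @cons x y z hadj p ih =>
      rw [SimpleGraph.fromRel_adj] at hadj
      have h1 : hop S R x.1 y.1 := by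
        rcases hadj.2 with h | h
        · exact h
        · exact hop_symm h
      have h2 := hop_trans h1 ih
      rw [SimpleGraph.Walk.length_cons]
      have h3 : R + R * p.length = R * (p.length + 1) := by ring
      rw [← h3]
      exact h2
  have h1 := hw _ _ (p.toPath : Γ.Walk ⟨a, ha⟩ ⟨b, hb⟩)
  have h2 := (p.toPath).2.length_lt
  exact hop_le (Nat.mul_le_mul_left R (by omega)) h1

/-- Row R3. -/
theorem r3 : R1.{u, v} → R3.{u, v} := by
  intro hR1 G _ _ htor S hSf hcl H A Q _ _ _ _ T
  obtain ⟨R, hR⟩ := hR1 G htor S hSf hcl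
  set N := Nat.card (T × Q × (↥(T ^ (R + 1)) → A)) with hN
  refine ⟨N + R * N, fun X _ _ hd tp st hL x y p hxy => ?_⟩
  obtain ⟨D, hx, hy, hD, hl⟩ := hR X {z | tp z p = tp x p} x y rfl fun h => hxy h.symm
  have hB : ∀ z ∈ fb S D, (hd z)⁻¹ * p ∈ T := by
    intro z hz
    obtain ⟨s, hs, h⟩ := hD hz
    refine hL.write z s p hs fun he => ?_
    rcases h with ⟨h1, h2⟩ | ⟨h1, h2⟩
    · exact h2 (he.trans h1)
    · exact h1 (he.symm.trans h2)
  have hc := card_le hL hB hl
  refine ⟨D, hx, hy, hc.trans ?_, hB, fun a ha b hb => ?_⟩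
  · exact_mod_cast Nat.le_add_right N (R * N)
  · exact hop_le (Nat.le_add_left _ _) (linked_hop hc ha hb (hl a ha b hb))

end Vale.Agent.P192.R2.H111
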